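import Vale.Agent.Lib.P078.Univ.NonAtomic

/-!
Every diffuse MASA of `B(H)` is finely divisible.
-/

namespace Vale.Agent.Lib.P078

open scoped InnerProductSpace

set_option linter.unusedSectionVars false

variable {H : Type*} [NormedAddCommGroup H] [InnerProductSpace ℂ H] [CompleteSpace H]
variable {A : StarSubalgebra ℂ (H →L[ℂ] H)}

lemma POU.reindex {ι κ : Type*} [Fintype ι] [Fintype κ] {g : ι → H →L[ℂ] H} (hg : POU g)
    (σ : κ ≃ ι) : POU (fun k => g (σ k)) where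
  proj := fun k => hg.proj _
  orth := fun k k' h => hg.orth _ _ (fun h2 => h (σ.injective h2))
  sum_eq := by
    rw [← hg.sum_eq]
    exact Equiv.sum_comp σ g

lemma not_atom_of_diffuse (hd : IsDiffuse A) (p : H →L[ℂ] H) : ¬ IsAtomProj A p := by
  rintro ⟨hpA, hp, hp0, hmin⟩
  obtain ⟨p', hp'A, hp', hp'0, hne, hle⟩ := hd p hpA hp hp0
  rcases hmin p' hp'A hp' hle with h | h
  · exact hp'0 h
  · exact hne h

/-- approximation of the vectors of a cyclic subspace by simple vectors -/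
lemma approx_vector (hA : IsMASA (fullAlgebra H) A) {ζ ξ : H} (hξ : ξ ∈ cyc A ζ) {δ : ℝ}
    (hδ : 0 < δ) : ∃ s ∈ Submodule.span ℂ (projSet A), ‖ξ - s ζ‖ < δ := by
  have hξ' : ξ ∈ closure (orbit A ζ : Set H) := hξ
  obtain ⟨_, ⟨a, ha, rfl⟩, hdist⟩ := Metric.mem_closure_iff.mp hξ' (δ / 2) (half_pos hδ)
  rw [dist_eq_norm] at hdist
  obtain ⟨s, hs, hs2⟩ := approx_simple hA ha (κ := δ / (2 * (‖ζ‖ + 1))) (by positivity)
  refine ⟨s, hs, ?_⟩
  have e : ξ - s ζ = (ξ - a ζ) + (a - s) ζ := by simp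
  rw [e]
  have h1 : ‖(a - s) ζ‖ ≤ δ / (2 * (‖ζ‖ + 1)) * ‖ζ‖ :=
    ((a - s).le_opNorm ζ).trans (mul_le_mul_of_nonneg_right hs2.le (norm_nonneg _))
  have h2 : δ / (2 * (‖ζ‖ + 1)) * ‖ζ‖ ≤ δ / 2 := by
    rw [div_mul_eq_mul_div, div_le_div_iff₀ (by positivity) (by positivity)]
    nlinarith [norm_nonneg ζ]
  calc _ ≤ ‖ξ - a ζ‖ + ‖(a - s) ζ‖ := norm_add_le _ _
    _ < δ / 2 + δ / 2 := add_lt_add_of_lt_of_le hdist (h1.trans h2)
    _ = δ := by ring

theorem finelyDivisible_of_diffuse [Nontrivial H] (hA : IsMASA (fullAlgebra H) A)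
    (hd : IsDiffuse A) : FinelyDivisible (projSet A) := by
  classical
  intro F δ hδ
  obtain ⟨v0, hv0⟩ := exists_ne (0 : H)
  obtain ⟨ζ, hζ⟩ := exists_cyclic hA (insert v0 F)
  have hζ0 : ζ ≠ 0 := by
    rintro rfl
    apply hv0
    have := apply_eq_zero_of_mem_cyc hA A.one_mem (ζ := (0 : H)) (by simp)
      (hζ v0 (Finset.mem_insert_self _ _))
    simpa using this
  have happ : ∀ ξ ∈ F, ∃ s ∈ Submodule.span ℂ (projSet A), ‖ξ - s ζ‖ < δ :=
    fun ξ hξ => approx_vector hA (hζ ξ (Finset.mem_insert_of_mem hξ)) hδ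
  choose! s hs hsδ using happ
  have hfin : ∀ ξ ∈ F, ∃ T : Finset (H →L[ℂ] H), (T : Set (H →L[ℂ] H)) ⊆ projSet A ∧
      s ξ ∈ Submodule.span ℂ (T : Set (H →L[ℂ] H)) :=
    fun ξ hξ => Submodule.mem_span_finite_of_mem_span (hs ξ hξ)
  choose! T hT hsT using hfin
  obtain ⟨ι, _, g, hg, hgA, hspan⟩ := exists_atoms hA (F.biUnion T) (by
    intro p hp
    obtain ⟨ξ, hξ, hp⟩ := Finset.mem_biUnion.mp hp
    exact hT ξ hξ hp)
  have hsg : ∀ ξ ∈ F, s ξ ∈ Submodule.span ℂ (Set.range g) := by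
    intro ξ hξ
    have hle : Submodule.span ℂ (T ξ : Set (H →L[ℂ] H)) ≤ Submodule.span ℂ (Set.range g) := by
      rw [Submodule.span_le]
      intro p hp
      exact hspan p (Finset.mem_biUnion.mpr ⟨ξ, hξ, hp⟩)
    exact hle (hsT ξ hξ)
  -- the nonzero pieces
  let J := {j : ι // g j ζ ≠ 0}
  let σ : J ≃ Fin (Fintype.card J) := Fintype.equivFin J
  have hJne : Nonempty J := by
    by_contra hcon
    have hall : ∀ j, g j ζ = 0 := by
      intro j
      by_contra hj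
      exact hcon ⟨⟨j, hj⟩⟩
    have := hg.sum_apply ζ
    simp only [hall, Finset.sum_const_zero] at this
    exact hζ0 this.symm
  let e : Fin (Fintype.card J) → H := fun k => ((‖g (σ.symm k).1 ζ‖⁻¹ : ℝ) : ℂ) • g (σ.symm k).1 ζ
  have hnorm : ∀ k, ‖g (σ.symm k).1 ζ‖ ≠ 0 := fun k => norm_ne_zero_iff.mpr (σ.symm k).2
  have he : Orthonormal ℂ e := by
    constructor
    · intro k
      show ‖((‖g (σ.symm k).1 ζ‖⁻¹ : ℝ) : ℂ) • g (σ.symm k).1 ζ‖ = 1
      rw [norm_smul, Complex.norm_real, norm_inv, norm_norm, inv_mul_cancel₀ (hnorm k)]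
    · intro k k' hkk
      show ⟪((‖g (σ.symm k).1 ζ‖⁻¹ : ℝ) : ℂ) • g (σ.symm k).1 ζ,
        ((‖g (σ.symm k').1 ζ‖⁻¹ : ℝ) : ℂ) • g (σ.symm k').1 ζ⟫_ℂ = 0
      have hne : (σ.symm k).1 ≠ (σ.symm k').1 := by
        intro h
        exact hkk (σ.symm.injective (Subtype.ext h))
      rw [inner_smul_left, inner_smul_right, hg.inner_left, hg.orth_apply hne]
      simp
  have hfix : ∀ j, projOn e (g j ζ) = g j ζ := by
    intro j
    by_cases hj : g j ζ = 0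
    · rw [hj, map_zero]
    · have e1 : g j ζ = ((‖g j ζ‖ : ℝ) : ℂ) • e (σ ⟨j, hj⟩) := by
        show g j ζ = ((‖g j ζ‖ : ℝ) : ℂ) •
          (((‖g (σ.symm (σ ⟨j, hj⟩)).1 ζ‖⁻¹ : ℝ) : ℂ) • g (σ.symm (σ ⟨j, hj⟩)).1 ζ)
        rw [Equiv.symm_apply_apply, smul_smul, ← Complex.ofReal_mul,
          mul_inv_cancel₀ (norm_ne_zero_iff.mpr hj)]
        simp
      rw [e1, map_smul, projOn_basis he]
  refine ⟨Fintype.card J, e, he, ?_, ?_⟩
  · intro ξ hξ
    obtain ⟨t, ht⟩ := (Submodule.mem_span_range_iff_exists_fun ℂ).mp (hsg ξ hξ)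
    have hfix2 : projOn e (s ξ ζ) = s ξ ζ := by
      rw [← ht]
      simp only [sum_apply, smul_apply, map_sum, map_smul, hfix]
    have e1 : ξ - projOn e ξ = (1 - projOn e) (ξ - s ξ ζ) := by
      simp only [sub_apply, one_apply_eq_self, map_sub, hfix2]
      abel
    rw [e1]
    exact lt_of_le_of_lt (proj_norm_apply_le (projOn_isStarProjection he).one_sub _) (hsδ ξ hξ)
  · intro η hη
    obtain ⟨j0, hj0⟩ := Finite.exists_min (fun j : J => ‖g j.1 ζ‖ ^ 2)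
    set c := ‖g j0.1 ζ‖ ^ 2 with hc
    have hcpos : 0 < c := by
      have := norm_pos_iff.mpr j0.2
      positivity
    obtain ⟨κ, _, f, hfA, hfp, hfo, hfsum, hfg⟩ := div_one hA ζ (η := η * c) (by positivity)
    have hf : POU f := ⟨hfp, hfo, hfsum⟩
    have hsmall : ∀ l, ‖f l ζ‖ ^ 2 ≤ η * c := by
      intro l
      rcases hfg l with h | h
      · exact h
      · exact absurd h (not_atom_of_diffuse hd _)
    have hh : POU (fun x : ι × κ => g x.1 * f x.2) :=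
      hg.prod hf (fun l k => hA.comm (hgA l) (hfA k))
    let τ : Fin (Fintype.card (ι × κ)) ≃ ι × κ := (Fintype.equivFin (ι × κ)).symm
    let π : Fin (Fintype.card (ι × κ)) → Fin (Fintype.card J) := fun l =>
      if hx : g (τ l).1 ζ ≠ 0 then σ ⟨(τ l).1, hx⟩ else σ (Classical.choice hJne)
    have hval : ∀ (x : ι × κ) (k : Fin (Fintype.card J)),
        (g x.1 * f x.2) (e k) = ((‖g (σ.symm k).1 ζ‖⁻¹ : ℝ) : ℂ) •
          g x.1 (g (σ.symm k).1 (f x.2 ζ)) := by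
      intro x k
      show (g x.1 * f x.2) (((‖g (σ.symm k).1 ζ‖⁻¹ : ℝ) : ℂ) • g (σ.symm k).1 ζ) = _
      rw [map_smul, mul_apply_eq_comp, hA.comm_apply (hfA x.2) (hgA _)]
    refine ⟨Fintype.card (ι × κ), fun l => g (τ l).1 * f (τ l).2, π, ?_, ?_, ?_, ?_⟩
    · intro l
      exact ⟨A.mul_mem (hgA _) (hfA _), hh.proj (τ l)⟩
    · exact hh.reindex τ
    · intro l k hlk
      rw [hval]
      have hne : (τ l).1 ≠ (σ.symm k).1 := by
        intro h
        apply hlk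
        have hx : g (τ l).1 ζ ≠ 0 := by rw [h]; exact (σ.symm k).2
        show (if hx : g (τ l).1 ζ ≠ 0 then σ ⟨(τ l).1, hx⟩ else σ (Classical.choice hJne)) = k
        rw [dif_pos hx]
        have : (⟨(τ l).1, hx⟩ : J) = σ.symm k := Subtype.ext h
        rw [this, Equiv.apply_symm_apply]
      rw [hg.orth_apply hne, smul_zero]
    · intro l
      rw [hval, norm_smul, Complex.norm_real, norm_inv, norm_norm, mul_pow]
      set k := π l
      have h1 : ‖g (τ l).1 (g (σ.symm k).1 (f (τ l).2 ζ))‖ ≤ ‖f (τ l).2 ζ‖ :=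
        (hg.norm_apply_le _ _).trans (hg.norm_apply_le _ _)
      have h2 : ‖g (τ l).1 (g (σ.symm k).1 (f (τ l).2 ζ))‖ ^ 2 ≤ η * c :=
        (pow_le_pow_left₀ (norm_nonneg _) h1 2).trans (hsmall _)
      have h3 : c ≤ ‖g (σ.symm k).1 ζ‖ ^ 2 := hj0 (σ.symm k)
      have h4 : 0 < ‖g (σ.symm k).1 ζ‖ ^ 2 := lt_of_lt_of_le hcpos h3
      rw [inv_pow, inv_mul_le_iff₀ h4]
      calc _ ≤ η * c := h2
        _ ≤ η * ‖g (σ.symm k).1 ζ‖ ^ 2 := mul_le_mul_of_nonneg_left h3 hη.le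
        _ = ‖g (σ.symm k).1 ζ‖ ^ 2 * η := mul_comm _ _

end Vale.Agent.Lib.P078
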