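import Vale.Agent.Lib.P078.Univ.Spectral

/-!
Products of partitions of unity, the partition generated by finitely many projections,
and cyclic vectors for finite sets.
-/

namespace Vale.Agent.Lib.P078

open scoped InnerProductSpace

set_option linter.unusedSectionVars false

variable {H : Type*} [NormedAddCommGroup H] [InnerProductSpace ℂ H] [CompleteSpace H]
variable {A : StarSubalgebra ℂ (H →L[ℂ] H)}

lemma POU.prod {ι κ : Type*} [Fintype ι] [Fintype κ] {g : ι → H →L[ℂ] H} {f : κ → H →L[ℂ] H}
    (hg : POU g) (hf : POU f) (hc : ∀ l k, g l * f k = f k * g l) :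
    POU (fun x : ι × κ => g x.1 * f x.2) where
  proj := fun x => (hg.proj x.1).mul (hf.proj x.2) (hc x.1 x.2)
  orth := by
    rintro ⟨l, k⟩ ⟨l', k'⟩ hne
    show g l * f k * (g l' * f k') = 0
    have e : g l * f k * (g l' * f k') = (g l * g l') * (f k * f k') := by
      calc g l * f k * (g l' * f k') = g l * (f k * g l') * f k' := by simp only [mul_assoc]
        _ = g l * (g l' * f k) * f k' := by rw [hc l' k]
        _ = _ := by simp only [mul_assoc]
    rw [e]
    by_cases h : l = l'
    · subst h
      have hk : k ≠ k' := fun h2 => hne (by rw [h2])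
      rw [hf.orth k k' hk, mul_zero]
    · rw [hg.orth l l' h, zero_mul]
  sum_eq := by
    rw [Fintype.sum_prod_type]
    simp only [← Finset.mul_sum, hf.sum_eq, mul_one, hg.sum_eq]

lemma POU.pair {p : H →L[ℂ] H} (hp : IsStarProjection p) :
    POU (fun b : Bool => if b then p else 1 - p) where
  proj := by
    intro b
    cases b
    · simpa using hp.one_sub
    · simpa using hp
  orth := by
    intro b b' hne
    cases b <;> cases b' <;> simp_all [hp.mul_one_sub_self, hp.one_sub_mul_self]
  sum_eq := by simp

lemma POU.unit : POU (fun _ : Unit => (1 : H →L[ℂ] H)) where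
  proj := fun _ => IsStarProjection.one _
  orth := fun l l' h => absurd (Subsingleton.elim l l') h
  sum_eq := by simp

/-- the partition generated by finitely many projections of `A` -/
theorem exists_atoms (hA : IsMASA (fullAlgebra H) A) (T : Finset (H →L[ℂ] H))
    (hT : ∀ p ∈ T, p ∈ projSet A) :
    ∃ (ι : Type) (_ : Fintype ι) (g : ι → H →L[ℂ] H), POU g ∧ (∀ l, g l ∈ A) ∧
      ∀ p ∈ T, p ∈ Submodule.span ℂ (Set.range g) := by
  classical
  induction T using Finset.induction_on with
  | empty => exact ⟨Unit, inferInstance, fun _ => 1, POU.unit, fun _ => A.one_mem, by simp⟩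
  | insert p0 T _ ih =>
    obtain ⟨ι, hι, g, hg, hgA, hspan⟩ := ih (fun p hp => hT p (Finset.mem_insert_of_mem hp))
    obtain ⟨hp0A, hp0⟩ := hT p0 (Finset.mem_insert_self _ _)
    have hfA : ∀ b : Bool, (if b then p0 else 1 - p0) ∈ A := by
      intro b
      cases b
      · simpa using A.sub_mem A.one_mem hp0A
      · simpa using hp0A
    refine ⟨ι × Bool, inferInstance, fun x => g x.1 * (if x.2 then p0 else 1 - p0),
      hg.prod (POU.pair hp0) (fun l k => hA.comm (hgA l) (hfA k)),
      fun x => A.mul_mem (hgA x.1) (hfA x.2), ?_⟩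
    set g' : ι × Bool → H →L[ℂ] H := fun x => g x.1 * (if x.2 then p0 else 1 - p0) with hg'
    have hmem : ∀ x, g' x ∈ Submodule.span ℂ (Set.range g') :=
      fun x => Submodule.subset_span ⟨x, rfl⟩
    have hle : Submodule.span ℂ (Set.range g) ≤ Submodule.span ℂ (Set.range g') := by
      rw [Submodule.span_le]
      rintro _ ⟨l, rfl⟩
      have : g l = g' (l, true) + g' (l, false) := by
        simp only [hg', if_true, Bool.false_eq_true, if_false]
        rw [← mul_add]; simp
      rw [this]
      exact Submodule.add_mem _ (hmem _) (hmem _)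
    intro p hp
    rcases Finset.mem_insert.mp hp with rfl | hp
    · have : p = ∑ l, g' (l, true) := by
        simp only [hg', if_true]
        rw [← Finset.sum_mul, hg.sum_eq, one_mul]
      rw [this]
      exact Submodule.sum_mem _ (fun l _ => hmem _)
    · exact hle (hspan p hp)

/-- a cyclic vector for a finite set -/
theorem exists_cyclic (hA : IsMASA (fullAlgebra H) A) (F : Finset H) :
    ∃ ζ : H, ∀ ξ ∈ F, ξ ∈ cyc A ζ := by
  classical
  induction F using Finset.induction_on with
  | empty => exact ⟨0, by simp⟩
  | insert ξ F _ ih =>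
    obtain ⟨ζ, hζ⟩ := ih
    set z := cycProj A ζ with hz
    have hzA : z ∈ A := cycProj_mem hA ζ
    set ζ' := ζ + (ξ - z ξ) with hζ'
    have hzz : z (z ξ) = z ξ := cycProj_apply_of_mem (cycProj_apply_mem ζ ξ)
    have h1 : z ζ' = ζ := by
      rw [hζ', map_add, map_sub, hzz, sub_self, add_zero]
      exact cycProj_self ζ
    have hle : cyc A ζ ≤ cyc A ζ' := by
      apply Submodule.topologicalClosure_mono
      rintro _ ⟨a, ha, rfl⟩
      exact ⟨a * z, A.mul_mem ha hzA, by simp [mul_apply_eq_comp, h1]⟩
    refine ⟨ζ', ?_⟩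
    intro x hx
    rcases Finset.mem_insert.mp hx with rfl | hx
    · have e : x = z x + (x - z x) := by abel
      rw [e]
      apply Submodule.add_mem
      · exact hle (cycProj_apply_mem ζ x)
      · apply orbit_le_cyc
        refine ⟨1 - z, A.sub_mem A.one_mem hzA, ?_⟩
        simp only [sub_apply, one_apply_eq_self, h1]
        rw [hζ']; abel
    · exact hle (hζ x hx)

end Vale.Agent.Lib.P078
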