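import Vale.Agent.Lib.P078.Upper

/-!
Basic facts on a MASA `A` of `B(H)`: projections onto invariant subspaces, cyclic projections.
-/

namespace Vale.Agent.Lib.P078

open scoped InnerProductSpace

set_option linter.unusedSectionVars false

variable {H : Type*} [NormedAddCommGroup H] [InnerProductSpace ℂ H] [CompleteSpace H]
variable {A : StarSubalgebra ℂ (H →L[ℂ] H)}

lemma IsMASA.mem_of_commute (hA : IsMASA (fullAlgebra H) A) {T : H →L[ℂ] H}
    (hT : ∀ a ∈ A, T * a = a * T) : T ∈ A :=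
  hA.2.2 T (mem_fullAlgebra T) hT

lemma IsMASA.comm (hA : IsMASA (fullAlgebra H) A) {a b : H →L[ℂ] H} (ha : a ∈ A) (hb : b ∈ A) :
    a * b = b * a := hA.2.1 a ha b hb

lemma IsMASA.comm_apply (hA : IsMASA (fullAlgebra H) A) {a b : H →L[ℂ] H} (ha : a ∈ A) (hb : b ∈ A)
    (v : H) : a (b v) = b (a v) := by
  have := congrArg (fun T : H →L[ℂ] H => T v) (hA.comm ha hb)
  simpa [mul_apply_eq_comp] using this

/-- the projection onto a closed `A`-invariant subspace belongs to `A` -/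
lemma IsMASA.starProjection_mem (hA : IsMASA (fullAlgebra H) A) (K : Submodule ℂ H)
    [K.HasOrthogonalProjection] (hK : ∀ a ∈ A, ∀ v ∈ K, a v ∈ K) : K.starProjection ∈ A := by
  apply hA.mem_of_commute
  intro a ha
  ext v
  simp only [mul_apply_eq_comp]
  -- decompose v
  have hKperp : ∀ w ∈ Kᗮ, a w ∈ Kᗮ := by
    intro w hw
    rw [Submodule.mem_orthogonal] at hw ⊢
    intro u hu
    have h1 : ⟪u, a w⟫_ℂ = ⟪(star a) u, w⟫_ℂ := by
      rw [ContinuousLinearMap.star_eq_adjoint, ContinuousLinearMap.adjoint_inner_left]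
    rw [h1]
    exact hw _ (hK _ (star_mem ha) u hu)
  have h1 : a (K.starProjection v) ∈ K := hK a ha _ (Submodule.starProjection_apply_mem K v)
  have h2 : a (v - K.starProjection v) ∈ Kᗮ :=
    hKperp _ (Submodule.sub_starProjection_mem_orthogonal v)
  have h3 : a v = a (K.starProjection v) + a (v - K.starProjection v) := by
    rw [← map_add]; congr 1; abel
  rw [h3, map_add, Submodule.starProjection_eq_self_iff.mpr h1,
    (Submodule.starProjection_apply_eq_zero_iff K).mpr h2, add_zero]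

/-- the (non closed) orbit `A ζ` -/
def orbit (A : StarSubalgebra ℂ (H →L[ℂ] H)) (ζ : H) : Submodule ℂ H where
  carrier := {v | ∃ a ∈ A, a ζ = v}
  add_mem' := by
    rintro _ _ ⟨a, ha, rfl⟩ ⟨b, hb, rfl⟩
    exact ⟨a + b, A.add_mem ha hb, by simp⟩
  zero_mem' := ⟨0, A.zero_mem, by simp⟩
  smul_mem' := by
    rintro c _ ⟨a, ha, rfl⟩
    exact ⟨c • a, A.smul_mem ha c, by simp⟩

/-- the cyclic subspace, the closure of `A ζ` -/
def cyc (A : StarSubalgebra ℂ (H →L[ℂ] H)) (ζ : H) : Submodule ℂ H :=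
  (orbit A ζ).topologicalClosure

instance (ζ : H) : (cyc A ζ).HasOrthogonalProjection := by
  have : CompleteSpace (cyc A ζ) :=
    (Submodule.isClosed_topologicalClosure _).completeSpace_coe
  infer_instance

lemma mem_orbit {ζ : H} {a : H →L[ℂ] H} (ha : a ∈ A) : a ζ ∈ orbit A ζ := ⟨a, ha, rfl⟩

lemma orbit_le_cyc (ζ : H) : orbit A ζ ≤ cyc A ζ := Submodule.le_topologicalClosure _

lemma self_mem_cyc (ζ : H) : ζ ∈ cyc A ζ :=
  orbit_le_cyc ζ ⟨1, A.one_mem, by simp⟩

/-- closure of an invariant submodule is invariant -/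
lemma closure_invariant {K : Submodule ℂ H} {a : H →L[ℂ] H} (h : ∀ v ∈ K, a v ∈ K) :
    ∀ v ∈ K.topologicalClosure, a v ∈ K.topologicalClosure := by
  intro v hv
  have hv' : v ∈ closure (K : Set H) := hv
  exact map_mem_closure a.continuous hv' (fun w hw => h w hw)

lemma cyc_invariant (ζ : H) : ∀ a ∈ A, ∀ v ∈ cyc A ζ, a v ∈ cyc A ζ := by
  intro a ha
  apply closure_invariant
  rintro _ ⟨b, hb, rfl⟩
  exact ⟨a * b, A.mul_mem ha hb, by simp [mul_apply_eq_comp]⟩

/-- the cyclic projection -/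
noncomputable def cycProj (A : StarSubalgebra ℂ (H →L[ℂ] H)) (ζ : H) : H →L[ℂ] H :=
  (cyc A ζ).starProjection

lemma cycProj_mem (hA : IsMASA (fullAlgebra H) A) (ζ : H) : cycProj A ζ ∈ A :=
  hA.starProjection_mem _ (cyc_invariant ζ)

lemma cycProj_proj (ζ : H) : IsStarProjection (cycProj A ζ) :=
  isStarProjection_starProjection

lemma cycProj_apply_of_mem {ζ v : H} (hv : v ∈ cyc A ζ) : cycProj A ζ v = v :=
  Submodule.starProjection_eq_self_iff.mpr hv

lemma cycProj_self (ζ : H) : cycProj A ζ ζ = ζ := cycProj_apply_of_mem (self_mem_cyc ζ)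

lemma cycProj_apply_mem (ζ v : H) : cycProj A ζ v ∈ cyc A ζ :=
  Submodule.starProjection_apply_mem _ v

/-- an element of `A` killing `ζ` kills the cyclic subspace -/
lemma apply_eq_zero_of_mem_cyc (hA : IsMASA (fullAlgebra H) A) {p : H →L[ℂ] H} (hp : p ∈ A) {ζ : H}
    (h0 : p ζ = 0) {v : H} (hv : v ∈ cyc A ζ) : p v = 0 := by
  have hv' : v ∈ closure (orbit A ζ : Set H) := hv
  have hcl : IsClosed {w : H | p w = 0} := isClosed_eq p.continuous continuous_const
  refine closure_minimal ?_ hcl hv'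
  rintro _ ⟨a, ha, rfl⟩
  show p (a ζ) = 0
  rw [hA.comm_apply hp ha, h0, map_zero]

end Vale.Agent.Lib.P078
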