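import Vale.Agent.Lib.P078.Univ.Atoms

/-!
Exhaustion: for a MASA `A` of `B(H)`, a vector `ζ` and `η > 0`, the unit is a finite orthogonal sum
of projections of `A` each of which is either small on `ζ` or minimal.
-/

namespace Vale.Agent.Lib.P078

open scoped InnerProductSpace

set_option linter.unusedSectionVars false

variable {H : Type*} [NormedAddCommGroup H] [InnerProductSpace ℂ H] [CompleteSpace H]
variable {A : StarSubalgebra ℂ (H →L[ℂ] H)}

/-- minimal projections of `A` -/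
def IsAtomProj (A : StarSubalgebra ℂ (H →L[ℂ] H)) (p : H →L[ℂ] H) : Prop :=
  p ∈ A ∧ IsStarProjection p ∧ p ≠ 0 ∧
    ∀ p' ∈ A, IsStarProjection p' → p * p' = p' → p' = 0 ∨ p' = p

/-- a piece is good if it is small on `ζ` or minimal -/
def Good (A : StarSubalgebra ℂ (H →L[ℂ] H)) (ζ : H) (η : ℝ) (f : H →L[ℂ] H) : Prop :=
  ‖f ζ‖ ^ 2 ≤ η ∨ IsAtomProj A f

lemma proj_apply_apply {p : H →L[ℂ] H} (hp : IsStarProjection p) (v : H) : p (p v) = p v := by
  have := DFunLike.congr_fun hp.isIdempotentElem.eq v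
  simpa only [mul_apply_eq_comp] using this

lemma proj_norm_apply_le {p : H →L[ℂ] H} (hp : IsStarProjection p) (v : H) : ‖p v‖ ≤ ‖v‖ := by
  calc ‖p v‖ ≤ ‖p‖ * ‖v‖ := p.le_opNorm v
    _ ≤ 1 * ‖v‖ := mul_le_mul_of_nonneg_right (IsStarProjection.norm_le _ hp) (norm_nonneg _)
    _ = ‖v‖ := one_mul _

/-- Pythagoras for a projection -/
lemma proj_pythagoras {p : H →L[ℂ] H} (hp : IsStarProjection p) (v : H) :
    ‖p v‖ ^ 2 + ‖v - p v‖ ^ 2 = ‖v‖ ^ 2 := by
  have h := (POU.pair hp).sum_norm_sq v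
  simp only [Fintype.sum_bool, if_true, Bool.false_eq_true, if_false, sub_apply,
    one_apply_eq_self] at h
  exact h

/-- divisibility of a projection into good pieces -/
def Div (A : StarSubalgebra ℂ (H →L[ℂ] H)) (ζ : H) (η : ℝ) (q : H →L[ℂ] H) : Prop :=
  ∃ (ι : Type) (_ : Fintype ι) (f : ι → H →L[ℂ] H), (∀ l, f l ∈ A) ∧
    (∀ l, IsStarProjection (f l)) ∧ (∀ l l', l ≠ l' → f l * f l' = 0) ∧ ∑ l, f l = q ∧
    ∀ l, Good A ζ η (f l)

lemma sum_mul_self_of_orth {ι : Type*} [Fintype ι] [DecidableEq ι] {f : ι → H →L[ℂ] H}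
    (hp : ∀ l, IsStarProjection (f l)) (ho : ∀ l l', l ≠ l' → f l * f l' = 0) (l : ι) :
    f l * ∑ k, f k = f l := by
  rw [Finset.mul_sum, Finset.sum_eq_single l]
  · exact (hp l).isIdempotentElem
  · intro k _ hk
    exact ho l k (Ne.symm hk)
  · intro h; exact absurd (Finset.mem_univ l) h

lemma isStarProjection_sum {ι : Type*} [Fintype ι] {f : ι → H →L[ℂ] H}
    (hp : ∀ l, IsStarProjection (f l)) (ho : ∀ l l', l ≠ l' → f l * f l' = 0) :
    IsStarProjection (∑ l, f l) := by
  classical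
  rw [isStarProjection_iff]
  constructor
  · show (∑ l, f l) * (∑ l, f l) = ∑ l, f l
    rw [Finset.sum_mul]
    exact Finset.sum_congr rfl (fun l _ => sum_mul_self_of_orth hp ho l)
  · rw [IsSelfAdjoint, star_sum]
    exact Finset.sum_congr rfl (fun l _ => (hp l).isSelfAdjoint.star_eq)

namespace Div

variable {ζ : H} {η : ℝ} {q q' : H →L[ℂ] H}

lemma mem (h : Div A ζ η q) : q ∈ A := by
  obtain ⟨ι, _, f, hfA, _, _, rfl, _⟩ := h
  exact A.sum_mem (fun l _ => hfA l)

lemma proj (h : Div A ζ η q) : IsStarProjection q := by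
  obtain ⟨ι, _, f, _, hp, ho, rfl, _⟩ := h
  exact isStarProjection_sum hp ho

lemma zero : Div A ζ η 0 :=
  ⟨Empty, inferInstance, fun e => e.elim, fun e => e.elim, fun e => e.elim, fun e => e.elim,
    by simp, fun e => e.elim⟩

lemma single {r : H →L[ℂ] H} (hrA : r ∈ A) (hr : IsStarProjection r) (hg : Good A ζ η r) :
    Div A ζ η r :=
  ⟨Unit, inferInstance, fun _ => r, fun _ => hrA, fun _ => hr,
    fun l l' h => absurd (Subsingleton.elim l l') h, by simp, fun _ => hg⟩

lemma add (hA : IsMASA (fullAlgebra H) A) (h : Div A ζ η q) (h' : Div A ζ η q')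
    (ho : q * q' = 0) : Div A ζ η (q + q') := by
  classical
  obtain ⟨ι, _, f, hfA, hp, hfo, rfl, hg⟩ := h
  obtain ⟨κ, _, f', hfA', hp', hfo', rfl, hg'⟩ := h'
  have hcross : ∀ l k, f l * f' k = 0 := by
    intro l k
    have e1 : f l = f l * ∑ l, f l := (sum_mul_self_of_orth hp hfo l).symm
    have e2 : f' k = (∑ k, f' k) * f' k := by
      have h1 := sum_mul_self_of_orth hp' hfo' k
      rw [hA.comm (hfA' k) (A.sum_mem (fun l _ => hfA' l))] at h1
      exact h1.symm
    rw [e1, e2]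
    calc (f l * ∑ l, f l) * ((∑ k, f' k) * f' k) = f l * ((∑ l, f l) * (∑ k, f' k)) * f' k := by
          simp only [mul_assoc]
      _ = 0 := by rw [ho]; simp
  refine ⟨ι ⊕ κ, inferInstance, Sum.elim f f', ?_, ?_, ?_, ?_, ?_⟩
  · rintro (l | k)
    · exact hfA l
    · exact hfA' k
  · rintro (l | k)
    · exact hp l
    · exact hp' k
  · rintro (l | k) (l' | k') hne
    · exact hfo l l' (fun h => hne (by rw [h]))
    · exact hcross l k'
    · show f' k * f l' = 0
      rw [hA.comm (hfA' k) (hfA l')]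
      exact hcross l' k
    · exact hfo' k k' (fun h => hne (by rw [h]))
  · simp [Fintype.sum_sum_type]
  · rintro (l | k)
    · exact hg l
    · exact hg' k

/-- cutting by a projection of `A` -/
lemma cut (hA : IsMASA (fullAlgebra H) A) (hη : 0 ≤ η) (h : Div A ζ η q) {e : H →L[ℂ] H}
    (heA : e ∈ A) (he : IsStarProjection e) : Div A ζ η (q * e) := by
  obtain ⟨ι, _, f, hfA, hp, hfo, rfl, hg⟩ := h
  refine ⟨ι, inferInstance, fun l => f l * e, fun l => A.mul_mem (hfA l) heA,
    fun l => (hp l).mul he (hA.comm (hfA l) heA), ?_, ?_, ?_⟩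
  · intro l l' hne
    calc f l * e * (f l' * e) = f l * (e * f l') * e := by simp only [mul_assoc]
      _ = f l * (f l' * e) * e := by rw [hA.comm heA (hfA l')]
      _ = (f l * f l') * e * e := by simp only [mul_assoc]
      _ = 0 := by rw [hfo l l' hne]; simp
  · rw [Finset.sum_mul]
  · intro l
    show Good A ζ η (f l * e)
    rcases hg l with hs | hat
    · left
      have e1 : (f l * e) ζ = e (f l ζ) := by
        rw [hA.comm (hfA l) heA]; simp [mul_apply_eq_comp]
      rw [e1]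
      calc ‖e (f l ζ)‖ ^ 2 ≤ ‖f l ζ‖ ^ 2 :=
            pow_le_pow_left₀ (norm_nonneg _) (proj_norm_apply_le he _) 2
        _ ≤ η := hs
    · have h1 : f l * (f l * e) = f l * e := by
        rw [← mul_assoc, (hp l).isIdempotentElem.eq]
      rcases hat.2.2.2 (f l * e) (A.mul_mem (hfA l) heA)
        ((hp l).mul he (hA.comm (hfA l) heA)) h1 with h0 | h0
      · left; rw [h0]; simpa using hη
      · right; rw [h0]; exact hat

/-- directedness -/
lemma join (hA : IsMASA (fullAlgebra H) A) (hη : 0 ≤ η) (h : Div A ζ η q) (h' : Div A ζ η q') :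
    ∃ q'', Div A ζ η q'' ∧ q'' * q = q ∧ q'' * q' = q' := by
  have hq := h.proj
  have hq' := h'.proj
  have hc : q * q' = q' * q := hA.comm h.mem h'.mem
  have h1 : Div A ζ η (q' * (1 - q)) := h'.cut hA hη (A.sub_mem A.one_mem h.mem) hq.one_sub
  have ho : q * (q' * (1 - q)) = 0 := by
    calc q * (q' * (1 - q)) = q' * (q * (1 - q)) := by rw [← mul_assoc, hc, mul_assoc]
      _ = 0 := by rw [hq.mul_one_sub_self, mul_zero]
  refine ⟨q + q' * (1 - q), h.add hA h1 ho, ?_, ?_⟩
  · rw [add_mul, mul_assoc, hq.one_sub_mul_self, mul_zero, add_zero, hq.isIdempotentElem.eq]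
  · have : q' * (1 - q) * q' = q' - q * q' := by
      calc q' * (1 - q) * q' = q' * q' - q' * q * q' := by noncomm_ring
        _ = q' * q' - q * (q' * q') := by rw [← hc, mul_assoc]
        _ = q' - q * q' := by rw [hq'.isIdempotentElem.eq]
    rw [add_mul, this]
    abel

end Div

/-- the vectors fixed by some divisible projection -/
def divSub (hA : IsMASA (fullAlgebra H) A) (ζ : H) {η : ℝ} (hη : 0 ≤ η) : Submodule ℂ H where
  carrier := {v | ∃ q, Div A ζ η q ∧ q v = v}
  add_mem' := by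
    rintro v v' ⟨q, hq, hv⟩ ⟨q', hq', hv'⟩
    obtain ⟨q'', hq'', h1, h2⟩ := hq.join hA hη hq'
    refine ⟨q'', hq'', ?_⟩
    have e1 : q'' v = v := by
      have := DFunLike.congr_fun h1 v
      simp only [mul_apply_eq_comp] at this
      rwa [hv] at this
    have e2 : q'' v' = v' := by
      have := DFunLike.congr_fun h2 v'
      simp only [mul_apply_eq_comp] at this
      rwa [hv'] at this
    rw [map_add, e1, e2]
  zero_mem' := ⟨0, Div.zero, by simp⟩
  smul_mem' := by
    rintro c v ⟨q, hq, hv⟩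
    exact ⟨q, hq, by rw [map_smul, hv]⟩

/-- below a projection that does not kill `ζ` there is a good projection that does not kill `ζ` -/
lemma exists_good_aux (hA : IsMASA (fullAlgebra H) A) (ζ : H) {η : ℝ} (k : ℕ) :
    ∀ r ∈ A, IsStarProjection r → cycProj A ζ * r = r → r ζ ≠ 0 → ‖r ζ‖ ^ 2 ≤ 2 ^ k * η →
      ∃ r' ∈ A, IsStarProjection r' ∧ r * r' = r' ∧ r' ζ ≠ 0 ∧ Good A ζ η r' := by
  induction k with
  | zero =>
    intro r hrA hr _ h0 hs
    exact ⟨r, hrA, hr, hr.isIdempotentElem, h0, Or.inl (by simpa using hs)⟩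
  | succ k ih =>
    intro r hrA hr hz h0 hs
    by_cases hat : IsAtomProj A r
    · exact ⟨r, hrA, hr, hr.isIdempotentElem, h0, Or.inr hat⟩
    · have hr0 : r ≠ 0 := by
        rintro rfl
        exact h0 (by simp)
      unfold IsAtomProj at hat
      push Not at hat
      obtain ⟨p, hpA, hp, hrp, hp0, hpr⟩ := hat hrA hr hr0
      -- the two halves
      have hpr' : p * r = p := by rw [hA.comm hpA hrA, hrp]
      set p2 := r - p with hp2
      have hp2A : p2 ∈ A := A.sub_mem hrA hpA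
      have hp2p : IsStarProjection p2 := hp.sub_of_mul_eq_left hr hpr'
      have hrp2 : r * p2 = p2 := by
        rw [hp2, mul_sub, hr.isIdempotentElem.eq, hrp]
      have hp20 : p2 ≠ 0 := by
        intro h
        exact hpr (sub_eq_zero.mp h).symm
      -- faithfulness below the cyclic projection
      have hfaith : ∀ e ∈ A, r * e = e → e ζ = 0 → e = 0 := by
        intro e heA hre he0
        have hze : cycProj A ζ * e = e := by
          rw [← hre, ← mul_assoc, hz]
        have hez : e * cycProj A ζ = e := by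
          rw [hA.comm heA (cycProj_mem hA ζ), hze]
        ext v
        have := DFunLike.congr_fun hez v
        simp only [mul_apply_eq_comp] at this
        rw [← this, apply_eq_zero_of_mem_cyc hA heA he0 (cycProj_apply_mem ζ v)]
        simp
      have hpζ : p ζ ≠ 0 := fun h => hp0 (hfaith p hpA hrp h)
      have hp2ζ : p2 ζ ≠ 0 := fun h => hp20 (hfaith p2 hp2A hrp2 h)
      have hpy : ‖p ζ‖ ^ 2 + ‖p2 ζ‖ ^ 2 = ‖r ζ‖ ^ 2 := by
        have h1 := proj_pythagoras hp (r ζ)
        have e1 : p (r ζ) = p ζ := by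
          have := DFunLike.congr_fun hpr' ζ
          simpa only [mul_apply_eq_comp] using this
        rw [e1] at h1
        rw [hp2, sub_apply]
        exact h1
      have hzp : cycProj A ζ * p = p := by rw [← hrp, ← mul_assoc, hz]
      have hzp2 : cycProj A ζ * p2 = p2 := by rw [← hrp2, ← mul_assoc, hz]
      have hpow : (2 : ℝ) ^ (k + 1) * η = 2 * (2 ^ k * η) := by rw [pow_succ]; ring
      by_cases hcase : ‖p ζ‖ ^ 2 ≤ 2 ^ k * η
      · obtain ⟨r', h1, h2, h3, h4, h5⟩ := ih p hpA hp hzp hpζ hcase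
        refine ⟨r', h1, h2, ?_, h4, h5⟩
        rw [← h3, ← mul_assoc, hrp]
      · have hcase2 : ‖p2 ζ‖ ^ 2 ≤ 2 ^ k * η := by
          push Not at hcase
          rw [hpow] at hs
          linarith
        obtain ⟨r', h1, h2, h3, h4, h5⟩ := ih p2 hp2A hp2p hzp2 hp2ζ hcase2
        refine ⟨r', h1, h2, ?_, h4, h5⟩
        rw [← h3, ← mul_assoc, hrp2]

lemma exists_good (hA : IsMASA (fullAlgebra H) A) (ζ : H) {η : ℝ} (hη : 0 < η)
    {r : H →L[ℂ] H} (hrA : r ∈ A) (hr : IsStarProjection r) (h0 : r ζ ≠ 0) :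
    ∃ r' ∈ A, IsStarProjection r' ∧ r * r' = r' ∧ r' ζ ≠ 0 ∧ Good A ζ η r' := by
  set z := cycProj A ζ with hz
  have hzA : z ∈ A := cycProj_mem hA ζ
  have hzp : IsStarProjection z := cycProj_proj ζ
  have hc : z * r = r * z := hA.comm hzA hrA
  obtain ⟨r0, hr0⟩ : ∃ r0, r0 = z * r := ⟨_, rfl⟩
  have hr0A : r0 ∈ A := hr0 ▸ A.mul_mem hzA hrA
  have hr0p : IsStarProjection r0 := hr0 ▸ hzp.mul hr hc
  have hzr0 : z * r0 = r0 := by rw [hr0, ← mul_assoc, hzp.isIdempotentElem.eq]
  have hr0ζ : r0 ζ = r ζ := by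
    rw [hr0, hc]
    simp only [mul_apply_eq_comp]
    rw [hz, cycProj_self]
  obtain ⟨k, hk⟩ := pow_unbounded_of_one_lt (‖r ζ‖ ^ 2 / η) (by norm_num : (1 : ℝ) < 2)
  rw [div_lt_iff₀ hη] at hk
  obtain ⟨r', h1, h2, h3, h4, h5⟩ := exists_good_aux hA ζ k r0 hr0A hr0p hzr0
    (by rw [hr0ζ]; exact h0) (by rw [hr0ζ]; exact hk.le)
  refine ⟨r', h1, h2, ?_, h4, h5⟩
  have : r * r0 = r0 := by
    rw [hr0, ← mul_assoc, ← hc, mul_assoc, hr.isIdempotentElem.eq]
  rw [← h3, ← mul_assoc, this]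

/-- the unit is divisible into good pieces -/
theorem div_one (hA : IsMASA (fullAlgebra H) A) (ζ : H) {η : ℝ} (hη : 0 < η) : Div A ζ η 1 := by
  set U0 := divSub hA ζ hη.le with hU0
  set U := U0.topologicalClosure with hU
  have : CompleteSpace U := (Submodule.isClosed_topologicalClosure _).completeSpace_coe
  set Q := U.starProjection with hQ
  have hQp : IsStarProjection Q := isStarProjection_starProjection
  have hQA : Q ∈ A := by
    apply hA.starProjection_mem
    intro a ha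
    apply closure_invariant
    rintro v ⟨q, hq, hv⟩
    exact ⟨q, hq, by rw [hA.comm_apply hq.mem ha, hv]⟩
  have hζQ : Q ζ = ζ := by
    by_contra hne
    have h0 : (1 - Q) ζ ≠ 0 := by
      simp only [sub_apply, one_apply_eq_self]
      exact sub_ne_zero.mpr (Ne.symm hne)
    obtain ⟨r', h1, h2, h3, h4, h5⟩ :=
      exists_good hA ζ hη (A.sub_mem A.one_mem hQA) hQp.one_sub h0
    have hd : Div A ζ η r' := Div.single h1 h2 h5
    have hQr : Q (r' ζ) = r' ζ := by
      apply Submodule.starProjection_eq_self_iff.mpr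
      apply Submodule.le_topologicalClosure
      exact ⟨r', hd, proj_apply_apply h2 ζ⟩
    have h6 := DFunLike.congr_fun h3 ζ
    simp only [mul_apply_eq_comp, sub_apply, one_apply_eq_self, hQr, sub_self] at h6
    exact h4 h6.symm
  have hmem : ζ ∈ closure (U0 : Set H) := by
    have : ζ ∈ U := by
      rw [← hζQ]; exact Submodule.starProjection_apply_mem U ζ
    exact this
  obtain ⟨v, ⟨q, hq, hv⟩, hdist⟩ := Metric.mem_closure_iff.mp hmem (Real.sqrt η) (Real.sqrt_pos.mpr hη)
  have hqp := hq.proj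
  have hsmall : ‖(1 - q) ζ‖ ^ 2 ≤ η := by
    have e1 : (1 - q) ζ = (1 - q) (ζ - v) := by
      simp only [sub_apply, one_apply_eq_self, map_sub, hv]
      abel
    rw [e1]
    have h1 : ‖(1 - q) (ζ - v)‖ ≤ ‖ζ - v‖ := proj_norm_apply_le hqp.one_sub _
    rw [dist_eq_norm] at hdist
    calc ‖(1 - q) (ζ - v)‖ ^ 2 ≤ (Real.sqrt η) ^ 2 :=
          pow_le_pow_left₀ (norm_nonneg _) (h1.trans hdist.le) 2
      _ = η := Real.sq_sqrt hη.le
  have := hq.add hA (Div.single (A.sub_mem A.one_mem hq.mem) hqp.one_sub (Or.inl hsmall))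
    hqp.mul_one_sub_self
  simpa using this

end Vale.Agent.Lib.P078
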