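import Vale.Agent.Lib.P078.Univ.Basic

/-!
The linear span of the projections of a MASA `A` of `B(H)` is norm dense in `A`.
-/

namespace Vale.Agent.Lib.P078

open scoped InnerProductSpace

set_option linter.unusedSectionVars false

variable {H : Type*} [NormedAddCommGroup H] [InnerProductSpace ℂ H] [CompleteSpace H]
variable {A : StarSubalgebra ℂ (H →L[ℂ] H)}

/-- the set of projections of `A` -/
def projSet (A : StarSubalgebra ℂ (H →L[ℂ] H)) : Set (H →L[ℂ] H) :=
  {p | p ∈ A ∧ IsStarProjection p}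

/-- kernel as a closed submodule -/
def kerSub (T : H →L[ℂ] H) : Submodule ℂ H := LinearMap.ker T.toLinearMap

lemma mem_kerSub {T : H →L[ℂ] H} {v : H} : v ∈ kerSub T ↔ T v = 0 := by
  simp [kerSub]

instance (T : H →L[ℂ] H) : (kerSub T).HasOrthogonalProjection := by
  have hcl : IsClosed (kerSub T : Set H) := by
    have : (kerSub T : Set H) = {v | T v = 0} := by ext v; simp [mem_kerSub]
    rw [this]
    exact isClosed_eq T.continuous continuous_const
  have : CompleteSpace (kerSub T) := hcl.completeSpace_coe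
  infer_instance

lemma rsmul_mem {a : H →L[ℂ] H} (ha : a ∈ A) (γ : ℝ) : γ • a ∈ A := by
  rw [← Complex.coe_smul]
  exact A.smul_mem ha _

/-- splitting a self-adjoint element of `A` by a projection of `A` -/
lemma exists_split (hA : IsMASA (fullAlgebra H) A) {c : H →L[ℂ] H} (hc : c ∈ A)
    (hcs : IsSelfAdjoint c) :
    ∃ p ∈ A, IsStarProjection p ∧ c * p = c⁺ ∧ c * (1 - p) = -c⁻ := by
  set N := kerSub (c⁺) with hN
  set P := N.starProjection with hP
  have hPA : P ∈ A := by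
    apply hA.starProjection_mem
    intro a ha v hv
    rw [hN, mem_kerSub] at hv ⊢
    have hcomm : Commute c a := hA.comm hc ha
    have h2 : Commute (c⁺) a := by
      rw [CFC.posPart_def]
      exact hcomm.cfcₙ_real _
    have := congrArg (fun T : H →L[ℂ] H => T v) h2.eq
    simp only [mul_apply_eq_comp] at this
    rw [this, hv, map_zero]
  have hPp : IsStarProjection P := isStarProjection_starProjection
  have h1 : c⁺ * P = 0 := by
    ext v
    simp only [mul_apply_eq_comp, zero_apply]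
    exact mem_kerSub.mp (Submodule.starProjection_apply_mem N v)
  have h2 : P * c⁻ = c⁻ := by
    ext v
    simp only [mul_apply_eq_comp]
    apply Submodule.starProjection_eq_self_iff.mpr
    rw [hN, mem_kerSub]
    have h := DFunLike.congr_fun (CFC.posPart_mul_negPart c) v
    simpa only [mul_apply_eq_comp, zero_apply] using h
  have hnsa : IsSelfAdjoint (c⁻) := IsSelfAdjoint.of_nonneg (CFC.negPart_nonneg c)
  have h3 : c⁻ * P = c⁻ := by
    have := congrArg star h2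
    rwa [star_mul, hnsa.star_eq, hPp.isSelfAdjoint.star_eq] at this
  have hdec : c⁺ - c⁻ = c := CFC.posPart_sub_negPart c hcs
  refine ⟨1 - P, A.sub_mem A.one_mem hPA, hPp.one_sub, ?_, ?_⟩
  · calc c * (1 - P) = (c⁺ - c⁻) * (1 - P) := by rw [hdec]
      _ = c⁺ - c⁻ - c⁺ * P + c⁻ * P := by noncomm_ring
      _ = c⁺ := by rw [h1, h3]; abel
  · calc c * (1 - (1 - P)) = (c⁺ - c⁻) * P := by rw [hdec]; congr 1; abel
      _ = c⁺ * P - c⁻ * P := by noncomm_ring
      _ = -c⁻ := by rw [h1, h3]; abel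

/-- halving step -/
lemma exists_halve (hA : IsMASA (fullAlgebra H) A) {b : H →L[ℂ] H} (hb : b ∈ A) {γ : ℝ}
    (h0 : 0 ≤ b) (h1 : b ≤ γ • (1 : H →L[ℂ] H)) :
    ∃ p ∈ A, IsStarProjection p ∧ 0 ≤ b - (γ / 2) • p ∧
      b - (γ / 2) • p ≤ (γ / 2) • (1 : H →L[ℂ] H) := by
  set c := b - (γ / 2) • (1 : H →L[ℂ] H) with hc
  have hcA : c ∈ A := A.sub_mem hb (rsmul_mem A.one_mem _)
  have hbs : IsSelfAdjoint b := IsSelfAdjoint.of_nonneg h0
  have hcs : IsSelfAdjoint c := hbs.sub ((IsSelfAdjoint.all (γ / 2)).smul (IsSelfAdjoint.one _))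
  obtain ⟨p, hpA, hp, hp1, hp2⟩ := exists_split hA hcA hcs
  have hbp : b * p = p * b := hA.comm hb hpA
  have hpp : p * p = p := hp.isIdempotentElem
  refine ⟨p, hpA, hp, ?_, ?_⟩
  · have e1 : b - (γ / 2) • p = (1 - p) * b * (1 - p) + c⁺ := by
      rw [← hp1, hc]
      have : (1 - p) * b * (1 - p) = b - b * p := by
        calc (1 - p) * b * (1 - p) = b - b * p - p * b + p * b * p := by noncomm_ring
          _ = b - b * p - b * p + b * (p * p) := by rw [← hbp, mul_assoc]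
          _ = b - b * p := by rw [hpp]; abel
      rw [this, sub_mul, smul_mul_assoc, one_mul]
      abel
    rw [e1]
    exact add_nonneg (hp.one_sub.isSelfAdjoint.conjugate_nonneg h0) (CFC.posPart_nonneg c)
  · rw [← sub_nonneg]
    have e2 : (γ / 2) • (1 : H →L[ℂ] H) - (b - (γ / 2) • p)
        = c⁻ + p * (γ • (1 : H →L[ℂ] H) - b) * p := by
      have h3 : c⁻ = -(c * (1 - p)) := by rw [hp2, neg_neg]
      rw [h3, hc]
      have h4 : p * (γ • (1 : H →L[ℂ] H) - b) * p = γ • p - b * p := by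
        calc p * (γ • (1 : H →L[ℂ] H) - b) * p = γ • (p * p) - p * b * p := by
              rw [mul_sub, sub_mul, mul_smul_comm, mul_one, smul_mul_assoc]
          _ = γ • p - b * p := by rw [← hbp, mul_assoc, hpp]
      rw [h4, sub_mul, smul_mul_assoc, one_mul, mul_sub, mul_one, smul_sub]
      have h5 : γ • p = (γ / 2) • p + (γ / 2) • p := by
        rw [← add_smul]; congr 1; ring
      rw [h5]
      abel
    rw [e2]
    exact add_nonneg (CFC.negPart_nonneg c)
      (hp.isSelfAdjoint.conjugate_nonneg (sub_nonneg.mpr h1))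

lemma norm_le_of_between {b : H →L[ℂ] H} {γ : ℝ} (hγ : 0 ≤ γ) (h0 : 0 ≤ b)
    (h1 : b ≤ γ • (1 : H →L[ℂ] H)) : ‖b‖ ≤ γ := by
  have h2 := CStarAlgebra.norm_le_norm_of_nonneg_of_le h0 h1
  calc ‖b‖ ≤ ‖γ • (1 : H →L[ℂ] H)‖ := h2
    _ ≤ ‖γ‖ * ‖(1 : H →L[ℂ] H)‖ := norm_smul_le _ _
    _ ≤ γ * 1 := by
        rw [Real.norm_of_nonneg hγ]
        exact mul_le_mul_of_nonneg_left ContinuousLinearMap.norm_id_le hγ
    _ = γ := mul_one _

lemma approx_pos (hA : IsMASA (fullAlgebra H) A) (k : ℕ) :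
    ∀ (γ : ℝ), 0 ≤ γ → ∀ b ∈ A, 0 ≤ b → b ≤ γ • (1 : H →L[ℂ] H) →
      ∃ s ∈ Submodule.span ℂ (projSet A), ‖b - s‖ ≤ γ / 2 ^ k := by
  induction k with
  | zero =>
    intro γ hγ b _ h0 h1
    exact ⟨0, Submodule.zero_mem _, by simpa using norm_le_of_between hγ h0 h1⟩
  | succ k ih =>
    intro γ hγ b hb h0 h1
    obtain ⟨p, hpA, hp, h2, h3⟩ := exists_halve hA hb h0 h1
    obtain ⟨s, hs, hs2⟩ := ih (γ / 2) (by positivity) (b - (γ / 2) • p)
      (A.sub_mem hb (rsmul_mem hpA _)) h2 h3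
    refine ⟨s + (γ / 2) • p, Submodule.add_mem _ hs ?_, ?_⟩
    · rw [← Complex.coe_smul]
      exact Submodule.smul_mem _ _ (Submodule.subset_span ⟨hpA, hp⟩)
    · have : b - (s + (γ / 2) • p) = b - (γ / 2) • p - s := by abel
      rw [this]
      calc _ ≤ γ / 2 / 2 ^ k := hs2
        _ = γ / 2 ^ (k + 1) := by rw [pow_succ]; field_simp

lemma approx_sa (hA : IsMASA (fullAlgebra H) A) {a : H →L[ℂ] H} (ha : a ∈ A)
    (has : IsSelfAdjoint a) {κ : ℝ} (hκ : 0 < κ) :
    ∃ s ∈ Submodule.span ℂ (projSet A), ‖a - s‖ < κ := by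
  set γ := 2 * ‖a‖ with hγ
  have h1A : (‖a‖ • (1 : H →L[ℂ] H)) ∈ A := rsmul_mem A.one_mem _
  have e0 : algebraMap ℝ (H →L[ℂ] H) ‖a‖ = ‖a‖ • (1 : H →L[ℂ] H) :=
    Algebra.algebraMap_eq_smul_one _
  have hlow : 0 ≤ a + ‖a‖ • (1 : H →L[ℂ] H) := by
    have := has.neg_algebraMap_norm_le_self
    rw [e0] at this
    have h2 := add_le_add_right this (‖a‖ • (1 : H →L[ℂ] H))
    simpa [add_comm] using h2
  have hup : a + ‖a‖ • (1 : H →L[ℂ] H) ≤ γ • (1 : H →L[ℂ] H) := by
    have := has.le_algebraMap_norm_self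
    rw [e0] at this
    have h2 := add_le_add_right this (‖a‖ • (1 : H →L[ℂ] H))
    have h3 : γ • (1 : H →L[ℂ] H) = ‖a‖ • (1 : H →L[ℂ] H) + ‖a‖ • (1 : H →L[ℂ] H) := by
      rw [← add_smul, hγ]; congr 1; ring
    rw [h3]
    simpa [add_comm] using h2
  obtain ⟨k, hk⟩ : ∃ k : ℕ, γ / 2 ^ k < κ := by
    obtain ⟨k, hk⟩ := pow_unbounded_of_one_lt (γ / κ) (by norm_num : (1 : ℝ) < 2)
    refine ⟨k, ?_⟩
    rw [div_lt_iff₀ (by positivity)]
    rw [div_lt_iff₀ hκ] at hk
    linarith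
  obtain ⟨s, hs, hs2⟩ := approx_pos hA k γ (by positivity) _ (A.add_mem ha h1A) hlow hup
  refine ⟨s - ‖a‖ • (1 : H →L[ℂ] H), Submodule.sub_mem _ hs ?_, ?_⟩
  · rw [← Complex.coe_smul]
    exact Submodule.smul_mem _ _ (Submodule.subset_span ⟨A.one_mem, IsStarProjection.one _⟩)
  · have : a - (s - ‖a‖ • (1 : H →L[ℂ] H)) = a + ‖a‖ • (1 : H →L[ℂ] H) - s := by abel
    rw [this]
    exact lt_of_le_of_lt hs2 hk

/-- the span of the projections of `A` is norm dense in `A` -/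
theorem approx_simple (hA : IsMASA (fullAlgebra H) A) {a : H →L[ℂ] H} (ha : a ∈ A)
    {κ : ℝ} (hκ : 0 < κ) :
    ∃ s ∈ Submodule.span ℂ (projSet A), ‖a - s‖ < κ := by
  set a1 : H →L[ℂ] H := (1 / 2 : ℂ) • (a + star a) with ha1
  set a2 : H →L[ℂ] H := (-Complex.I / 2 : ℂ) • (a - star a) with ha2
  have hsa : star a ∈ A := star_mem ha
  have h1A : a1 ∈ A := A.smul_mem (A.add_mem ha hsa) _
  have h2A : a2 ∈ A := A.smul_mem (A.sub_mem ha hsa) _
  have h1s : IsSelfAdjoint a1 := by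
    rw [IsSelfAdjoint, ha1, star_smul, star_add, star_star, add_comm]
    congr 1
    simp
  have h2s : IsSelfAdjoint a2 := by
    rw [IsSelfAdjoint, ha2, star_smul, star_sub, star_star]
    have : star (-Complex.I / 2 : ℂ) = Complex.I / 2 := by
      simp
    rw [this, ← neg_sub a (star a), smul_neg, ← neg_smul]
    congr 1
    ring
  have hdec : a = a1 + Complex.I • a2 := by
    rw [ha1, ha2, smul_smul]
    have : Complex.I * (-Complex.I / 2) = 1 / 2 := by
      have := Complex.I_mul_I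
      linear_combination (-1 / 2 : ℂ) * this
    rw [this, ← smul_add]
    have : a + star a + (a - star a) = (2 : ℂ) • a := by rw [two_smul]; abel
    rw [this, smul_smul]
    norm_num
  obtain ⟨s1, hs1, hs1'⟩ := approx_sa hA h1A h1s (half_pos hκ)
  obtain ⟨s2, hs2, hs2'⟩ := approx_sa hA h2A h2s (half_pos hκ)
  refine ⟨s1 + Complex.I • s2, Submodule.add_mem _ hs1 (Submodule.smul_mem _ _ hs2), ?_⟩
  have : a - (s1 + Complex.I • s2) = (a1 - s1) + Complex.I • (a2 - s2) := by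
    conv_lhs => rw [hdec]
    rw [smul_sub]; abel
  rw [this]
  calc _ ≤ ‖a1 - s1‖ + ‖Complex.I • (a2 - s2)‖ := norm_add_le _ _
    _ = ‖a1 - s1‖ + ‖a2 - s2‖ := by rw [norm_smul]; simp
    _ < κ / 2 + κ / 2 := add_lt_add hs1' hs2'
    _ = κ := by ring

end Vale.Agent.Lib.P078
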